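import Vale.Agent.Lib.P161.Closure

open MeasureTheory

namespace Vale.Agent.Results.P161.ProductClosure

open Vale.Agent.Lib.P161

/-- On every countable tree `G` (in particular on the `d`-regular tree): if the free Ising
measures with parameters `θ₁` and `θ₂` (`θ = tanh β`) are factors of IID, then the free Ising
measure with parameter `θ₁ * θ₂` exists, and every free Ising measure with that parameter is a
factor of IID. -/
theorem result (V : Type) [Countable V] (G : SimpleGraph V) (hG : G.IsTree) (o : V)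
    (θ₁ θ₂ : ℝ) (h1 : 0 ≤ θ₁ ∧ θ₁ ≤ 1) (h2 : 0 ≤ θ₂ ∧ θ₂ ≤ 1)
    (ν₁ ν₂ : Measure (V → Bool))
    (hI1 : IsFreeIsing G o θ₁ ν₁) (hF1 : IsFIID G ν₁)
    (hI2 : IsFreeIsing G o θ₂ ν₂) (hF2 : IsFIID G ν₂) :
    (∃ ν, IsFreeIsing G o (θ₁ * θ₂) ν) ∧
      ∀ ν, IsFreeIsing G o (θ₁ * θ₂) ν → IsFIID G ν := by
  obtain ⟨ν, hν, hF⟩ := fiid_mul G o ⟨by linarith [h1.1], h1.2⟩ ⟨by linarith [h2.1], h2.2⟩
    hI1 hF1 hI2 hF2
  refine ⟨⟨ν, hν⟩, fun ν' hν' => ?_⟩
  rw [freeIsing_unique G hG.1 o _ hν' hν]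
  exact hF

end Vale.Agent.Results.P161.ProductClosure
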